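import Vale.Agent.P331.H489.Core

/-!
# Two facts about influences

For independent labels `true` (probability `q`) and `false`: the squares of the influences of a
set have a bounded sum (Bessel), and the sum over the targets `z` of the probability that `b` is
pivotal for `z` is at most the inverse of the rate (entrance).
-/

set_option autoImplicit false
set_option linter.unusedSectionVars false

namespace Vale.Agent.P331.H830

open Finset Vale.Agent.P331.H489
open scoped Classical

section bes

variable {E : Type*} [Fintype E] [DecidableEq E]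

/-- weights of a random set with rates `q` -/
def bw (q : E → ℝ) (e : E) (l : Bool) : ℝ := if l = true then q e else 1 - q e

theorem sum_bw (q : E → ℝ) (e : E) : ∑ l, bw q e l = 1 := by
  rw [sum_bool]; simp [bw]

theorem bw_nonneg {q : E → ℝ} (h0 : ∀ e, 0 ≤ q e) (h1 : ∀ e, q e ≤ 1) (e : E) (l : Bool) :
    0 ≤ bw q e l := by
  unfold bw
  split_ifs
  · exact h0 e
  · linarith [h1 e]

/-- the centred indicator of a coordinate -/
def psi (q : E → ℝ) (b : E) (ω : E → Bool) : ℝ := if ω b = true then 1 - q b else -q b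

/-- the discrete derivative -/
def dif (F : (E → Bool) → ℝ) (b : E) (ω : E → Bool) : ℝ :=
  F (Function.update ω b true) - F (Function.update ω b false)

theorem EX_psi (q : E → ℝ) (b : E) (F : (E → Bool) → ℝ) :
    EX (bw q) (fun ω => psi q b ω * F ω) = q b * (1 - q b) * EX (bw q) (dif F b) := by
  have h2 : EX (bw q) (dif F b) = EX (Function.update (bw q) b (Pi.single true 1)) (dif F b) := by
    rw [EX_split b true (bw q) (dif F b), sum_bool]
    have : ∀ l, (fun ω : E → Bool => dif F b (Function.update ω b l)) = dif F b := by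
      intro l
      funext ω
      simp [dif]
    rw [this, this, ← add_mul]
    simp [bw]
  rw [h2, EX_split b true (bw q) (fun ω => psi q b ω * F ω), sum_bool]
  have h3 : (fun ω : E → Bool => psi q b (Function.update ω b true) *
      F (Function.update ω b true)) = fun ω => (1 - q b) * F (Function.update ω b true) := by
    funext ω
    simp [psi]
  have h4 : (fun ω : E → Bool => psi q b (Function.update ω b false) *
      F (Function.update ω b false)) = fun ω => (-q b) * F (Function.update ω b false) := by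
    funext ω
    simp [psi]
  rw [h3, h4, EX_mul, EX_mul]
  have h5 : EX (Function.update (bw q) b (Pi.single true 1)) (dif F b) =
      EX (Function.update (bw q) b (Pi.single true 1)) (fun ω => F (Function.update ω b true)) -
      EX (Function.update (bw q) b (Pi.single true 1)) (fun ω => F (Function.update ω b false)) :=
    EX_sub _ _ _
  rw [h5]
  simp only [bw, if_true, Bool.false_eq_true, if_false]
  ring

theorem EX_psi_one (q : E → ℝ) (b : E) : EX (bw q) (fun ω => psi q b ω) = 0 := by
  have h := EX_psi q b (fun _ => 1)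
  simp only [mul_one] at h
  rw [h]
  have : dif (fun _ : E → Bool => (1 : ℝ)) b = fun _ => 0 := by
    funext ω; simp [dif]
  rw [this, EX_one _ (sum_bw q), mul_zero]

theorem EX_psi_psi (q : E → ℝ) (b c : E) :
    EX (bw q) (fun ω => psi q b ω * psi q c ω) = if b = c then q b * (1 - q b) else 0 := by
  rw [EX_psi]
  by_cases h : b = c
  · subst h
    have : dif (psi q b) b = fun _ => 1 := by
      funext ω; simp [dif, psi]
    rw [this, EX_one _ (sum_bw q), if_pos rfl, mul_one]
  · have : dif (psi q c) b = fun _ => 0 := by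
      funext ω
      simp [dif, psi, Function.update_of_ne (Ne.symm h)]
    rw [this, EX_one _ (sum_bw q), if_neg h, mul_zero]

/-- **Bessel.** -/
theorem bessel {q : E → ℝ} (h0 : ∀ e, 0 ≤ q e) (h1 : ∀ e, q e ≤ 1) (F : (E → Bool) → ℝ) :
    ∑ b, q b * (1 - q b) * (EX (bw q) (dif F b)) ^ 2 ≤
      EX (bw q) (fun ω => F ω ^ 2) - (EX (bw q) F) ^ 2 := by
  set m := EX (bw q) F with hm
  set J : E → ℝ := fun b => EX (bw q) (dif F b) with hJ
  have hpos : 0 ≤ EX (bw q) (fun ω => (F ω - m - ∑ b, J b * psi q b ω) ^ 2) :=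
    EX_nonneg (bw_nonneg h0 h1) fun ω => sq_nonneg _
  have e1 : (fun ω => (F ω - m - ∑ b, J b * psi q b ω) ^ 2) = fun ω =>
      ((F ω ^ 2 + (-2 * m) * F ω) + m ^ 2) + (∑ b, ((-2 * J b) * (psi q b ω * F ω)) +
        (∑ b, (2 * m * J b) * psi q b ω +
        ∑ b, ∑ c, (J b * J c) * (psi q b ω * psi q c ω))) := by
    funext ω
    have h2 : ∑ b, ((-2 * J b) * (psi q b ω * F ω)) = (-2 * F ω) * ∑ b, J b * psi q b ω := by
      rw [mul_sum]
      exact sum_congr rfl fun b _ => by ring
    have h3 : ∑ b, (2 * m * J b) * psi q b ω = (2 * m) * ∑ b, J b * psi q b ω := by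
      rw [mul_sum]
      exact sum_congr rfl fun b _ => by ring
    have h4 : ∑ b, ∑ c, (J b * J c) * (psi q b ω * psi q c ω) =
        (∑ b, J b * psi q b ω) * ∑ b, J b * psi q b ω := by
      rw [sum_mul_sum]
      exact sum_congr rfl fun b _ => sum_congr rfl fun c _ => by ring
    rw [h2, h3, h4]
    ring
  rw [e1] at hpos
  have e2 : EX (bw q) (fun ω =>
      ((F ω ^ 2 + (-2 * m) * F ω) + m ^ 2) + (∑ b, ((-2 * J b) * (psi q b ω * F ω)) +
        (∑ b, (2 * m * J b) * psi q b ω +
        ∑ b, ∑ c, (J b * J c) * (psi q b ω * psi q c ω)))) =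
      ((EX (bw q) (fun ω => F ω ^ 2) + (-2 * m) * m) + m ^ 2) +
        (∑ b, ((-2 * J b) * (q b * (1 - q b) * J b)) + (∑ b, (2 * m * J b) * 0 +
        ∑ b, ∑ c, (J b * J c) * (if b = c then q b * (1 - q b) else 0))) := by
    rw [EX_add (bw q) (fun ω => (F ω ^ 2 + (-2 * m) * F ω) + m ^ 2),
      EX_add (bw q) (fun ω => F ω ^ 2 + (-2 * m) * F ω) (fun _ => m ^ 2),
      EX_add (bw q) (fun ω => F ω ^ 2) (fun ω => (-2 * m) * F ω), EX_mul, EX_one _ (sum_bw q),
      EX_add (bw q) (fun ω => ∑ b, ((-2 * J b) * (psi q b ω * F ω))),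
      EX_add (bw q) (fun ω => ∑ b, (2 * m * J b) * psi q b ω),
      EX_sum univ (bw q) (fun b ω => (-2 * J b) * (psi q b ω * F ω)),
      EX_sum univ (bw q) (fun b ω => (2 * m * J b) * psi q b ω),
      EX_sum univ (bw q) (fun b ω => ∑ c, (J b * J c) * (psi q b ω * psi q c ω))]
    congr 2
    · exact sum_congr rfl fun b _ => by rw [EX_mul, EX_psi]
    · congr 1
      · exact sum_congr rfl fun b _ => by rw [EX_mul, EX_psi_one]
      · refine sum_congr rfl fun b _ => ?_
        rw [EX_sum univ (bw q) (fun c ω => (J b * J c) * (psi q b ω * psi q c ω))]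
        exact sum_congr rfl fun c _ => by rw [EX_mul, EX_psi_psi]
  rw [e2] at hpos
  have e3 : ∑ b, ∑ c, (J b * J c) * (if b = c then q b * (1 - q b) else 0) =
      ∑ b, q b * (1 - q b) * J b ^ 2 := by
    refine sum_congr rfl fun b _ => ?_
    rw [sum_eq_single b]
    · rw [if_pos rfl]; ring
    · intro c _ hc
      rw [if_neg (Ne.symm hc), mul_zero]
    · intro h; exact absurd (mem_univ b) h
  have e4 : ∑ b, ((-2 * J b) * (q b * (1 - q b) * J b)) =
      -2 * ∑ b, q b * (1 - q b) * J b ^ 2 := by
    rw [mul_sum]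
    exact sum_congr rfl fun b _ => by ring
  rw [e3, e4] at hpos
  simp only [mul_zero, sum_const_zero, zero_add] at hpos
  linarith

/-- Bessel for a set, equal rates. -/
theorem bessel_ind {t : ℝ} (h0 : 0 < t) (h1 : t < 1) (P : (E → Bool) → Prop) :
    ∑ b, (EX (bw fun _ => t) (dif (fun ω => if P ω then 1 else 0) b)) ^ 2 ≤
      1 / (4 * (t * (1 - t))) := by
  have h := bessel (q := fun _ : E => t) (fun _ => h0.le) (fun _ => h1.le)
    (fun ω => if P ω then (1 : ℝ) else 0)
  have h2 : (fun ω => (if P ω then (1 : ℝ) else 0) ^ 2) = fun ω => if P ω then (1 : ℝ) else 0 := by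
    funext ω
    split_ifs <;> simp
  rw [h2] at h
  set x := EX (bw fun _ : E => t) (fun ω => if P ω then (1 : ℝ) else 0)
  have h3 : x - x ^ 2 ≤ 1 / 4 := by nlinarith [sq_nonneg (x - 1 / 2)]
  have ht : 0 < t * (1 - t) := mul_pos h0 (by linarith)
  rw [← mul_sum] at h
  rw [le_div_iff₀ (by positivity)]
  nlinarith

/-- The number of elements with influence at least `g`. -/
theorem card_inf {t : ℝ} (h0 : 0 < t) (h1 : t < 1) (P : (E → Bool) → Prop) {g : ℝ} (hg : 0 < g) :
    ((univ.filter fun b : E =>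
      g ≤ EX (bw fun _ => t) (dif (fun ω => if P ω then 1 else 0) b)).card : ℝ) ≤
      1 / (4 * (t * (1 - t))) / g ^ 2 := by
  rw [le_div_iff₀ (by positivity)]
  refine le_trans ?_ (bessel_ind h0 h1 P)
  rw [← nsmul_eq_mul, ← sum_const]
  refine le_trans ?_ (sum_le_sum_of_subset_of_nonneg (filter_subset (fun b : E =>
      g ≤ EX (bw fun _ => t) (dif (fun ω => if P ω then 1 else 0) b)) univ)
      fun b _ _ => sq_nonneg _)
  refine sum_le_sum fun b hb => ?_
  have := (mem_filter.1 hb).2
  nlinarith

end bes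

section ent

variable {E : Type} [Fintype E] (M : Matroid E) (lt : E → E → Prop)

/-- `b` is pivotal for the target `z` at the set `P` -/
def piv (z b : E) (P : E → Prop) : Prop :=
  cov M lt z (fun e => e = b ∨ P e) ∧ ¬ cov M lt z (fun e => e ≠ b ∧ P e)

variable {M lt}

theorem piv_lt {z b : E} {P : E → Prop} (h : piv M lt z b P) : lt z b := by
  by_contra hn
  apply h.2
  have : {e | lt z e ∧ (e = b ∨ P e)} = {e | lt z e ∧ (e ≠ b ∧ P e)} := by
    ext e
    constructor
    · rintro ⟨h1, h2⟩
      have hne : e ≠ b := by rintro rfl; exact hn h1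
      exact ⟨h1, hne, h2.resolve_left hne⟩
    · rintro ⟨h1, h2, h3⟩
      exact ⟨h1, Or.inr h3⟩
  have h1 := h.1
  unfold cov at h1 ⊢
  rwa [← this]

/-- the pivotality for `z` does not depend on `z` itself being in the set -/
theorem piv_congr {z b : E} {P P' : E → Prop} (h : ∀ e, lt z e → (P e ↔ P' e)) :
    piv M lt z b P ↔ piv M lt z b P' := by
  unfold piv cov
  have h1 : {e | lt z e ∧ (e = b ∨ P e)} = {e | lt z e ∧ (e = b ∨ P' e)} := by
    ext e
    constructor
    · rintro ⟨h2, h3⟩; exact ⟨h2, h3.imp id (h e h2).1⟩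
    · rintro ⟨h2, h3⟩; exact ⟨h2, h3.imp id (h e h2).2⟩
  have h2 : {e | lt z e ∧ (e ≠ b ∧ P e)} = {e | lt z e ∧ (e ≠ b ∧ P' e)} := by
    ext e
    constructor
    · rintro ⟨h2, h3, h4⟩; exact ⟨h2, h3, (h e h2).1 h4⟩
    · rintro ⟨h2, h3, h4⟩; exact ⟨h2, h3, (h e h2).2 h4⟩
  rw [h1, h2]

/-- **Entrance**: an element is pivotal for at most one element of a given set. -/
theorem piv_unique (hM : M.E = Set.univ) (hlt : IsStrictTotalOrder E lt) {b z₁ z₂ : E}
    {P : E → Prop} (hz₁ : P z₁) (hz₂ : P z₂) (h₁ : piv M lt z₁ b P) (h₂ : piv M lt z₂ b P) :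
    z₁ = z₂ := by
  by_contra hne
  have key : ∀ x y : E, P x → lt y x → piv M lt x b P → piv M lt y b P → False := by
    intro x y hx hyx h1 h2
    have hxb : x ≠ b := by
      rintro rfl
      exact hlt.irrefl x (piv_lt h1)
    -- `b` is spanned by `x` and the elements of `P - b` heavier than `x`
    have hcl : x ∈ M.closure (insert b {e | lt x e ∧ (e ≠ b ∧ P e)}) := by
      refine M.closure_subset_closure ?_ h1.1
      rintro e ⟨h3, h4⟩
      by_cases heb : e = b
      · exact Or.inl heb
      · exact Or.inr ⟨h3, heb, h4.resolve_left heb⟩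
    have hb : b ∈ M.closure (insert x {e | lt x e ∧ (e ≠ b ∧ P e)}) :=
      (M.closure_exchange ⟨hcl, h1.2⟩).1
    have hb2 : b ∈ M.closure {e | lt y e ∧ (e ≠ b ∧ P e)} := by
      refine M.closure_subset_closure ?_ hb
      rintro e (rfl | ⟨h3, h4⟩)
      · exact ⟨hyx, hxb, hx⟩
      · exact ⟨hlt.trans _ _ _ hyx h3, h4⟩
    apply h2.2
    have hsub : {e | lt y e ∧ (e = b ∨ P e)} ⊆ M.closure {e | lt y e ∧ (e ≠ b ∧ P e)} := by
      rintro e ⟨h3, h4⟩
      by_cases heb : e = b
      · rw [heb]; exact hb2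
      · exact M.subset_closure _ (by rw [hM]; exact Set.subset_univ _)
          ⟨h3, heb, h4.resolve_left heb⟩
    exact M.closure_subset_closure_of_subset_closure hsub h2.1
  by_cases h12 : lt z₁ z₂
  · exact key z₂ z₁ hz₂ h12 h₂ h₁
  · by_cases h21 : lt z₂ z₁
    · exact key z₁ z₂ hz₁ h21 h₁ h₂
    · exact hne (hlt.trichotomous z₁ z₂ h12 h21)

/-- a function which does not depend on a coordinate -/
theorem EX_indep {q : E → ℝ} {z : E} {F : (E → Bool) → ℝ}
    (hF : ∀ ω l, F (Function.update ω z l) = F ω) :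
    EX (bw q) (fun ω => if ω z = true then F ω else 0) = q z * EX (bw q) F := by
  rw [EX_cond z true true, EX_split z true (bw q) F, sum_bool]
  simp only [hF]
  rw [← add_mul]
  simp [bw]

/-- **Entrance sum.** -/
theorem entrance (hM : M.E = Set.univ) (hlt : IsStrictTotalOrder E lt) {q : E → ℝ}
    (h0 : ∀ e, 0 ≤ q e) (h1 : ∀ e, q e ≤ 1) (b : E) :
    ∑ z, q z * EX (bw q) (fun ω => if piv M lt z b (fun e => ω e = true) then 1 else 0) ≤ 1 := by
  have hz : ∀ z, q z * EX (bw q) (fun ω => if piv M lt z b (fun e => ω e = true) then 1 else 0) =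
      EX (bw q) (fun ω => if ω z = true then
        (if piv M lt z b (fun e => ω e = true) then (1 : ℝ) else 0) else 0) := by
    intro z
    rw [EX_indep]
    intro ω l
    have : piv M lt z b (fun e => Function.update ω z l e = true) ↔
        piv M lt z b (fun e => ω e = true) := by
      refine piv_congr fun e he => ?_
      have hne : e ≠ z := by rintro rfl; exact hlt.irrefl e he
      rw [Function.update_of_ne hne]
    simp only [this]
  simp only [hz]
  rw [← EX_sum univ (bw q) (fun z ω => if ω z = true then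
        (if piv M lt z b (fun e => ω e = true) then (1 : ℝ) else 0) else 0)]
  refine (EX_mono (bw_nonneg h0 h1) (G := fun _ => 1) fun ω => ?_).trans
    (le_of_eq (EX_one _ (sum_bw q) 1))
  have h2 : ∀ z, (if ω z = true then (if piv M lt z b (fun e => ω e = true) then (1 : ℝ) else 0)
      else 0) = if ω z = true ∧ piv M lt z b (fun e => ω e = true) then 1 else 0 := by
    intro z
    by_cases h3 : ω z = true
    · simp [h3]
    · simp [h3]
  simp only [h2]
  rw [← sum_filter, sum_const, nsmul_eq_mul, mul_one]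
  have h4 : (univ.filter fun z => ω z = true ∧ piv M lt z b (fun e => ω e = true)).card ≤ 1 := by
    refine card_le_one.2 fun x hx y hy => ?_
    obtain ⟨_, hx1, hx2⟩ := mem_filter.1 hx
    obtain ⟨_, hy1, hy2⟩ := mem_filter.1 hy
    exact piv_unique hM hlt (P := fun e => ω e = true) hx1 hy1 hx2 hy2
  exact_mod_cast h4

theorem entrance' (hM : M.E = Set.univ) (hlt : IsStrictTotalOrder E lt) {t : ℝ}
    (h0 : 0 < t) (h1 : t ≤ 1) (b : E) :
    ∑ z, EX (bw fun _ => t) (fun ω => if piv M lt z b (fun e => ω e = true) then 1 else 0) ≤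
      1 / t := by
  rw [le_div_iff₀ h0, mul_comm, mul_sum]
  exact entrance hM hlt (q := fun _ => t) (fun _ => h0.le) (fun _ => h1) b

/-- the influence as a derivative -/
theorem dif_cov (z b : E) (ω : E → Bool) :
    dif (fun ω => if cov M lt z (fun e => ω e = true) then (1 : ℝ) else 0) b ω =
      if piv M lt z b (fun e => ω e = true) then 1 else 0 := by
  have h1 : cov M lt z (fun e => Function.update ω b true e = true) ↔
      cov M lt z (fun e => e = b ∨ ω e = true) := by
    have : (fun e => Function.update ω b true e = true) = fun e => e = b ∨ ω e = true := by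
      funext e
      by_cases h : e = b
      · subst h; simp
      · simp [h]
    rw [this]
  have h2 : cov M lt z (fun e => Function.update ω b false e = true) ↔
      cov M lt z (fun e => e ≠ b ∧ ω e = true) := by
    have : (fun e => Function.update ω b false e = true) = fun e => e ≠ b ∧ ω e = true := by
      funext e
      by_cases h : e = b
      · subst h; simp
      · simp [h]
    rw [this]
  unfold dif
  simp only [h1, h2]
  unfold piv
  by_cases ha : cov M lt z (fun e => e = b ∨ ω e = true)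
  · by_cases hb : cov M lt z (fun e => e ≠ b ∧ ω e = true)
    · simp [ha, hb]
    · simp [ha, hb]
  · have hb : ¬ cov M lt z (fun e => e ≠ b ∧ ω e = true) := fun hc =>
      ha (cov_mono M lt (fun e he => Or.inr he.2) hc)
    simp [ha, hb]

/-- the annealed influence of `b` on the target `z` at the rate `t` -/
noncomputable def Jn (M : Matroid E) (lt : E → E → Prop) (t : ℝ) (z b : E) : ℝ :=
  EX (bw fun _ => t) (fun ω => if piv M lt z b (fun e => ω e = true) then 1 else 0)

theorem Jn_nonneg {t : ℝ} (h0 : 0 ≤ t) (h1 : t ≤ 1) (z b : E) : 0 ≤ Jn M lt t z b :=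
  EX_nonneg (bw_nonneg (fun _ => h0) fun _ => h1) fun _ => by split_ifs <;> norm_num

theorem Jn_le_one {t : ℝ} (h0 : 0 ≤ t) (h1 : t ≤ 1) (z b : E) : Jn M lt t z b ≤ 1 :=
  (EX_mono (bw_nonneg (fun _ => h0) fun _ => h1) (G := fun _ => 1) fun _ => by
    split_ifs <;> norm_num).trans (le_of_eq (EX_one _ (sum_bw _) 1))

/-- (F1) -/
theorem sum_Jn (hM : M.E = Set.univ) (hlt : IsStrictTotalOrder E lt) {t : ℝ}
    (h0 : 0 < t) (h1 : t ≤ 1) (b : E) : ∑ z, Jn M lt t z b ≤ 1 / t :=
  entrance' hM hlt h0 h1 b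

/-- (F2) -/
theorem sum_Jn_sq {t : ℝ} (h0 : 0 < t) (h1 : t < 1) (z : E) :
    ∑ b, Jn M lt t z b ^ 2 ≤ 1 / (4 * (t * (1 - t))) := by
  have h := bessel_ind (E := E) h0 h1 (fun ω => cov M lt z (fun e => ω e = true))
  have h2 : ∀ b, EX (bw fun _ : E => t)
      (dif (fun ω => if cov M lt z (fun e => ω e = true) then (1 : ℝ) else 0) b) =
      Jn M lt t z b := by
    intro b
    unfold Jn
    congr 1
    funext ω
    exact dif_cov z b ω
  simp only [h2] at h
  exact h

/-- (F2), counting form -/
theorem card_Jn {t : ℝ} (h0 : 0 < t) (h1 : t < 1) (z : E) {g : ℝ} (hg : 0 < g) :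
    ((univ.filter fun b => g ≤ Jn M lt t z b).card : ℝ) ≤ 1 / (4 * (t * (1 - t))) / g ^ 2 := by
  rw [le_div_iff₀ (by positivity)]
  refine le_trans ?_ (sum_Jn_sq (M := M) (lt := lt) h0 h1 z)
  rw [← nsmul_eq_mul, ← sum_const]
  refine le_trans ?_ (sum_le_sum_of_subset_of_nonneg
    (filter_subset (fun b => g ≤ Jn M lt t z b) univ) fun b _ _ => sq_nonneg _)
  refine sum_le_sum fun b hb => ?_
  have := (mem_filter.1 hb).2
  nlinarith

end ent

end Vale.Agent.P331.H830
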