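import Vale.Agent.P331.H830.Bes
import Vale.Agent.P331.H379.JLabel
import Vale.Agent.P331.H688.QJRL

/-!
# Random subsets, couplings
-/

set_option autoImplicit false
set_option linter.unusedSectionVars false

namespace Vale.Agent.P331.H830

open Finset Vale.Agent.P331.H489 Vale.Agent.P331.H379
open scoped Classical

section gen

variable {E A B C : Type} [Fintype E] [Fintype A] [Fintype B] [Fintype C]

/-- pushing forward with maps which depend on the coordinate -/
theorem EX_push' (w : E → A → ℝ) (f : E → A → C) (F : (E → C) → ℝ) :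
    EX w (fun ω => F (fun e => f e (ω e))) = EX (fun e c => ∑ l with f e l = c, w e l) F := by
  unfold EX
  have h : ∀ κ : E → C, (∏ e, ∑ l with f e l = κ e, w e l) =
      ∑ ω : E → A with (fun e => f e (ω e)) = κ, ∏ e, w e (ω e) := by
    intro κ
    rw [Finset.prod_univ_sum]
    refine sum_congr ?_ fun _ _ => rfl
    ext ω
    simp only [Fintype.mem_piFinset, mem_filter, mem_univ, true_and]
    exact funext_iff.symm
  simp only [h, sum_mul]
  rw [← sum_fiberwise_of_maps_to (s := univ) (t := univ) (g := fun ω : E → A => fun e => f e (ω e))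
    (fun _ _ => mem_univ _)]
  refine sum_congr rfl fun κ _ => sum_congr rfl fun ω hω => ?_
  rw [(mem_filter.1 hω).2]

/-- **Coupling.** -/
theorem couple (w : E → A → ℝ) (u : E → B → ℝ) (f : E → A → C) (g : E → B → C)
    (h : ∀ e c, ∑ l with f e l = c, w e l = ∑ l with g e l = c, u e l) (F : (E → C) → ℝ) :
    EX w (fun ω => F (fun e => f e (ω e))) = EX u (fun ω => F (fun e => g e (ω e))) := by
  rw [EX_push', EX_push']
  congr 1
  funext e c
  exact h e c

end gen

section thin

variable {E : Type} [Fintype E]

/-- indicator -/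
noncomputable def ind (P : Prop) : ℝ := if P then 1 else 0

theorem ind_nonneg (P : Prop) : 0 ≤ ind P := by unfold ind; split_ifs <;> norm_num

theorem ind_le_one (P : Prop) : ind P ≤ 1 := by unfold ind; split_ifs <;> norm_num

theorem ind_of {P : Prop} (h : P) : ind P = 1 := if_pos h

theorem ind_not {P : Prop} (h : ¬ P) : ind P = 0 := if_neg h

theorem ind_mono {P Q : Prop} (h : P → Q) : ind P ≤ ind Q := by
  by_cases hP : P
  · rw [ind_of hP, ind_of (h hP)]
  · rw [ind_not hP]
    exact ind_nonneg Q

/-- the expectation of `F` over a random subset of `S`, every element is kept with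
probability `t` -/
noncomputable def thin (t : ℝ) (S : Finset E) (F : Finset E → ℝ) : ℝ :=
  EX (bw fun _ : E => t) fun c => F (S.filter fun e => c e = true)

variable {t : ℝ} {S : Finset E}

theorem thin_mono (h0 : 0 ≤ t) (h1 : t ≤ 1) {F G : Finset E → ℝ} (h : ∀ A ⊆ S, F A ≤ G A) :
    thin t S F ≤ thin t S G :=
  EX_mono (bw_nonneg (fun _ => h0) fun _ => h1) fun _ => h _ (filter_subset _ _)

theorem thin_congr {F G : Finset E → ℝ} (h : ∀ A ⊆ S, F A = G A) : thin t S F = thin t S G := by
  unfold thin
  congr 1
  funext c
  exact h _ (filter_subset _ _)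

theorem thin_const (c : ℝ) : thin t S (fun _ => c) = c := EX_one _ (sum_bw _) c

theorem thin_nonneg (h0 : 0 ≤ t) (h1 : t ≤ 1) {F : Finset E → ℝ} (h : ∀ A ⊆ S, 0 ≤ F A) :
    0 ≤ thin t S F :=
  EX_nonneg (bw_nonneg (fun _ => h0) fun _ => h1) fun _ => h _ (filter_subset _ _)

theorem thin_add (F G : Finset E → ℝ) :
    thin t S (fun A => F A + G A) = thin t S F + thin t S G := EX_add _ _ _

theorem thin_sub (F G : Finset E → ℝ) :
    thin t S (fun A => F A - G A) = thin t S F - thin t S G := EX_sub _ _ _

theorem thin_mul (c : ℝ) (F : Finset E → ℝ) :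
    thin t S (fun A => c * F A) = c * thin t S F := EX_mul _ _ _

theorem thin_sum {ι : Type*} (s : Finset ι) (F : ι → Finset E → ℝ) :
    thin t S (fun A => ∑ i ∈ s, F i A) = ∑ i ∈ s, thin t S (F i) :=
  EX_sum s _ fun i c => F i (S.filter fun e => c e = true)

theorem thin_ind_le_one (h0 : 0 ≤ t) (h1 : t ≤ 1) (P : Finset E → Prop) :
    thin t S (fun A => ind (P A)) ≤ 1 :=
  (thin_mono h0 h1 (G := fun _ => 1) fun _ _ => ind_le_one _).trans (le_of_eq (thin_const 1))

/-- Markov -/
theorem thin_markov (h0 : 0 ≤ t) (h1 : t ≤ 1) {F : Finset E → ℝ} (hF : ∀ A ⊆ S, 0 ≤ F A) {a : ℝ}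
    (ha : 0 < a) : thin t S (fun A => ind (a < F A)) ≤ thin t S F / a := by
  rw [le_div_iff₀ ha, mul_comm, ← thin_mul]
  refine thin_mono h0 h1 fun A hA => ?_
  by_cases h : a < F A
  · rw [ind_of h, mul_one]; exact h.le
  · rw [ind_not h, mul_zero]; exact hF A hA

theorem sum_bb (f : Bool × Bool → ℝ) : ∑ l, f l =
    f (true, true) + f (true, false) + f (false, true) + f (false, false) := by
  rw [Fintype.sum_prod_type, sum_bool, sum_bool, sum_bool]
  ring

theorem sum_bbb (f : Bool × Bool × Bool → ℝ) : ∑ l, f l =
    f (true, true, true) + f (true, true, false) + f (true, false, true) +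
      f (true, false, false) + f (false, true, true) + f (false, true, false) +
      f (false, false, true) + f (false, false, false) := by
  rw [Fintype.sum_prod_type, sum_bool, sum_bb, sum_bb]
  ring

/-- the union of two independent random subsets -/
theorem thin_split {g n : ℝ} (h : t = g + (1 - g) * n) (F : Finset E → ℝ) :
    thin t S F = thin g S fun G => thin n (S \ G) fun N => F (G ∪ N) := by
  unfold thin
  have h1 := EX_prod (bw fun _ : E => g) (bw fun _ : E => n) (fun a b =>
    F ((S.filter fun e => a e = true) ∪ ((S \ S.filter fun e => a e = true).filter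
      fun e => b e = true)))
  rw [← h1]
  have h2 := couple (fun (e : E) (x : Bool × Bool) => bw (fun _ : E => g) e x.1 *
    bw (fun _ : E => n) e x.2) (bw fun _ : E => t) (fun _ x => x.1 || x.2) (fun _ x => x)
    (by
      intro e c
      simp only [sum_filter]
      rw [sum_bb, sum_bool]
      cases c <;> simp [bw] <;> rw [h] <;> ring) (fun ω => F (S.filter fun e => ω e = true))
  rw [← h2]
  congr 1
  funext τ
  congr 1
  ext e
  simp only [mem_filter, mem_union, mem_sdiff, Bool.or_eq_true]
  tauto

/-- removing an independent random subset first -/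
theorem thin_three {g g1 n t : ℝ} (h1 : (1 - g) * g1 = g) (h2 : (1 - g1) * n = t)
    (Φ : Finset E → Finset E → ℝ) :
    (thin g S fun H => thin g1 (S \ H) fun G => thin n ((S \ H) \ G) fun N => Φ G N) =
      thin g S fun G => thin t (S \ G) fun N => Φ G N := by
  unfold thin
  have e1 : (EX (bw fun _ : E => g) fun a => EX (bw fun _ : E => g1) fun b =>
      EX (bw fun _ : E => n) fun c =>
        Φ ((S \ S.filter fun e => a e = true).filter fun e => b e = true)
          (((S \ S.filter fun e => a e = true) \
            ((S \ S.filter fun e => a e = true).filter fun e => b e = true)).filter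
              fun e => c e = true)) =
      EX (fun (e : E) (x : Bool × Bool × Bool) => bw (fun _ : E => g) e x.1 *
        (bw (fun _ : E => g1) e x.2.1 * bw (fun _ : E => n) e x.2.2)) (fun τ =>
        Φ (S.filter fun e => ((!(τ e).1 && (τ e).2.1), (!(τ e).1 && !(τ e).2.1 && (τ e).2.2)).1 =
          true) (S.filter fun e => ((!(τ e).1 && (τ e).2.1),
            (!(τ e).1 && !(τ e).2.1 && (τ e).2.2)).2 = true)) := by
    have h3 := EX_prod (bw fun _ : E => g) (fun (e : E) (x : Bool × Bool) =>
      bw (fun _ : E => g1) e x.1 * bw (fun _ : E => n) e x.2) (fun a bc =>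
        Φ (S.filter fun e => (!(a e) && (bc e).1) = true)
          (S.filter fun e => (!(a e) && !(bc e).1 && (bc e).2) = true))
    refine Eq.trans ?_ h3.symm
    congr 1
    funext a
    have h4 := EX_prod (bw fun _ : E => g1) (bw fun _ : E => n) (fun b c =>
        Φ (S.filter fun e => (!(a e) && b e) = true)
          (S.filter fun e => (!(a e) && !(b e) && c e) = true))
    refine Eq.trans ?_ h4.symm
    congr 1
    funext b
    congr 1
    funext c
    congr 1
    · ext e
      simp only [mem_filter, mem_sdiff, Bool.and_eq_true, Bool.not_eq_true']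
      cases a e <;> cases b e <;> simp
    · ext e
      simp only [mem_filter, mem_sdiff, Bool.and_eq_true, Bool.not_eq_true']
      cases a e <;> cases b e <;> cases c e <;> simp
  have e2 : (EX (bw fun _ : E => g) fun b => EX (bw fun _ : E => t) fun c =>
        Φ (S.filter fun e => b e = true) ((S \ (S.filter fun e => b e = true)).filter
              fun e => c e = true)) =
      EX (fun (e : E) (x : Bool × Bool) => bw (fun _ : E => g) e x.1 *
        bw (fun _ : E => t) e x.2) (fun τ =>
        Φ (S.filter fun e => ((τ e).1, (!(τ e).1 && (τ e).2)).1 = true)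
          (S.filter fun e => ((τ e).1, (!(τ e).1 && (τ e).2)).2 = true)) := by
    have h4 := EX_prod (bw fun _ : E => g) (bw fun _ : E => t) (fun b c =>
        Φ (S.filter fun e => (b e) = true)
          (S.filter fun e => (!(b e) && c e) = true))
    refine Eq.trans ?_ h4.symm
    congr 1
    funext b
    congr 1
    funext c
    congr 1
    ext e
    simp only [mem_filter, mem_sdiff, Bool.and_eq_true, Bool.not_eq_true']
    cases b e <;> cases c e <;> simp
  rw [e1, e2]
  refine couple (fun (e : E) (x : Bool × Bool × Bool) => bw (fun _ : E => g) e x.1 *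
        (bw (fun _ : E => g1) e x.2.1 * bw (fun _ : E => n) e x.2.2))
    (fun (e : E) (x : Bool × Bool) => bw (fun _ : E => g) e x.1 * bw (fun _ : E => t) e x.2)
    (fun _ x => ((!x.1 && x.2.1), (!x.1 && !x.2.1 && x.2.2))) (fun _ x => (x.1, (!x.1 && x.2)))
    ?_ (fun ω => Φ (S.filter fun e => (ω e).1 = true) (S.filter fun e => (ω e).2 = true))
  intro e c
  simp only [sum_filter]
  rw [sum_bbb, sum_bb]
  obtain ⟨c1, c2⟩ := c
  cases c1 <;> cases c2 <;> simp [bw] <;>
    first
    | exact Or.inl h2
    | linear_combination h1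
    | linear_combination (1 - g) * h2
    | linear_combination - h1 - (1 - g) * h2

theorem thin_union (G : Finset E) (F : Finset E → ℝ) :
    thin t S (fun N => F (N ∪ G)) = thin t (S \ G) fun N => F (N ∪ G) := by
  unfold thin
  congr 1
  funext c
  have h : (S.filter fun e => c e = true) ∪ G = ((S \ G).filter fun e => c e = true) ∪ G := by
    ext e
    simp only [mem_filter, mem_union, mem_sdiff]
    tauto
  exact congrArg F h

end thin

section labels

open Vale.Agent.P331.H688

variable {E : Type} [Fintype E]

/-- weights of the labels: `O` test set, `X` pool, `R` rest of the sample -/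
def w3 (p x : ℝ) : Lab → ℝ
  | .O => p
  | .R => 1 - p - x
  | .X => x

theorem sum_w3 (p x : ℝ) : ∑ l, w3 p x l = 1 := by
  rw [sum_lab]; simp only [w3]; ring

theorem w3_nonneg {p x : ℝ} (hp : 0 ≤ p) (hx : 0 ≤ x) (h : p + x ≤ 1) (l : Lab) :
    0 ≤ w3 p x l := by
  cases l
  · exact hp
  · simp only [w3]; linarith
  · exact hx

/-- test set and pool as labels -/
theorem labels_eq {p g x : ℝ} (hx : (1 - p) * g = x) (Ψ : Finset E → Finset E → ℝ) :
    (thin p univ fun V => thin g (univ \ V) fun H => Ψ V H) =
      EX (fun _ : E => w3 p x) fun ω => Ψ (lab Lab.O ω) (lab Lab.X ω) := by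
  unfold thin
  have h4 := EX_prod (bw fun _ : E => p) (bw fun _ : E => g) (fun a b =>
      Ψ (univ.filter fun e => a e = true)
        (univ.filter fun e => (!(a e) && b e) = true))
  have e1 : (EX (bw fun _ : E => p) fun a => EX (bw fun _ : E => g) fun b =>
      Ψ (univ.filter fun e => a e = true)
        ((univ \ univ.filter fun e => a e = true).filter fun e => b e = true)) =
      EX (bw fun _ : E => p) fun a => EX (bw fun _ : E => g) fun b =>
      Ψ (univ.filter fun e => a e = true)
        (univ.filter fun e => (!(a e) && b e) = true) := by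
    congr 1
    funext a
    congr 1
    funext b
    congr 1
    ext e
    simp only [mem_filter, mem_sdiff, mem_univ, true_and, Bool.and_eq_true, Bool.not_eq_true']
    cases a e <;> simp
  rw [e1, ← h4]
  have h2 := couple (fun (e : E) (x : Bool × Bool) => bw (fun _ : E => p) e x.1 *
      bw (fun _ : E => g) e x.2) (fun _ : E => w3 p x)
    (fun _ x => (x.1, (!x.1 && x.2))) (fun _ l => (decide (l = Lab.O), decide (l = Lab.X)))
    (by
      intro e c
      simp only [sum_filter]
      rw [sum_bb, sum_lab]
      obtain ⟨c1, c2⟩ := c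
      cases c1 <;> cases c2 <;> simp [bw, w3] <;>
        first
        | linear_combination hx
        | linear_combination - hx
        | linear_combination (0 : ℝ) * hx)
    (fun ω => Ψ (univ.filter fun e => (ω e).1 = true) (univ.filter fun e => (ω e).2 = true))
  refine Eq.trans h2 ?_
  congr 1
  funext ω
  congr 1
  · ext e; simp [lab]
  · ext e; simp [lab]

/-- conditioning on the second pool -/
theorem labels_cond {p x g1 r ε : ℝ} (hX : x = (1 - x) * (r * ε))
    (hR : (1 - p - x) * (1 - g1) = (1 - x) * r) (hG : (1 - p - x) * g1 = x)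
    (Ψ : Finset E → Finset E → Finset E → ℝ) :
    (EX (fun _ : E => w3 p x) fun ω => thin g1 (lab Lab.R ω) fun G =>
      Ψ (lab Lab.X ω) (lab Lab.R ω) G) =
      thin x univ fun G => EX (fun _ : E => lw r ε) fun ω =>
        Ψ (lab Lab.X ω \ G) (lab Lab.R ω ∪ G) G := by
  unfold thin
  have h3 := EX_prod (fun _ : E => w3 p x) (bw fun _ : E => g1) (fun ω b =>
      Ψ (lab Lab.X ω) (lab Lab.R ω) ((lab Lab.R ω).filter fun e => b e = true))
  have h4 := EX_prod (bw fun _ : E => x) (fun _ : E => lw r ε) (fun b ω =>
      Ψ (lab Lab.X ω \ (univ.filter fun e => b e = true))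
        (lab Lab.R ω ∪ (univ.filter fun e => b e = true)) (univ.filter fun e => b e = true))
  rw [← h3, ← h4]
  have h2 := couple (fun (e : E) (y : Lab × Bool) => w3 p x y.1 * bw (fun _ : E => g1) e y.2)
    (fun (e : E) (y : Bool × Lab) => bw (fun _ : E => x) e y.1 * lw r ε y.2)
    (fun _ y => (y.1, (decide (y.1 = Lab.R) && y.2)))
    (fun _ y => (if y.1 = true then Lab.R else y.2, y.1))
    (by
      intro e c
      simp only [sum_filter]
      rw [Fintype.sum_prod_type, Fintype.sum_prod_type, sum_bool, sum_lab]
      simp only [sum_bool, sum_lab]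
      obtain ⟨c1, c2⟩ := c
      cases c1 <;> cases c2 <;> simp [bw, w3, lw] <;>
        first
        | linear_combination hX
        | linear_combination hR
        | linear_combination hG
        | linear_combination - hX
        | linear_combination hX + hR + hG
        | linear_combination - hX - hR - hG)
    (fun ω => Ψ (univ.filter fun e => (ω e).1 = Lab.X) (univ.filter fun e => (ω e).1 = Lab.R)
      (univ.filter fun e => (ω e).2 = true))
  have e1 : (fun ω : E → Lab × Bool => Ψ
      (univ.filter fun e => ((ω e).1, (decide ((ω e).1 = Lab.R) && (ω e).2)).1 = Lab.X)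
      (univ.filter fun e => ((ω e).1, (decide ((ω e).1 = Lab.R) && (ω e).2)).1 = Lab.R)
      (univ.filter fun e => ((ω e).1, (decide ((ω e).1 = Lab.R) && (ω e).2)).2 = true)) =
      fun τ => Ψ (lab Lab.X fun e => (τ e).1) (lab Lab.R fun e => (τ e).1)
        ((lab Lab.R fun e => (τ e).1).filter fun e => (τ e).2 = true) := by
    funext ω
    congr 1
    ext e
    simp
  have e2 : (fun ω : E → Bool × Lab => Ψ
      (univ.filter fun e => (if (ω e).1 = true then Lab.R else (ω e).2, (ω e).1).1 = Lab.X)
      (univ.filter fun e => (if (ω e).1 = true then Lab.R else (ω e).2, (ω e).1).1 = Lab.R)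
      (univ.filter fun e => (if (ω e).1 = true then Lab.R else (ω e).2, (ω e).1).2 = true)) =
      fun τ => Ψ ((lab Lab.X fun e => (τ e).2) \ (univ.filter fun e => (τ e).1 = true))
        ((lab Lab.R fun e => (τ e).2) ∪ (univ.filter fun e => (τ e).1 = true))
        (univ.filter fun e => (τ e).1 = true) := by
    funext ω
    congr 1
    · ext e
      by_cases h : (ω e).1 = true
      · simp [h]
      · simp [h]
    · ext e
      by_cases h : (ω e).1 = true
      · simp [h]
      · simp [h]
  rw [e1, e2] at h2
  exact h2

end labels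

end Vale.Agent.P331.H830
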