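import Vale.Agent.P331.H830.Bas

/-!
# Good sets, violations; significance and luck
-/

set_option autoImplicit false
set_option linter.unusedSectionVars false

namespace Vale.Agent.P331.H830

open Finset Vale.Agent.P331.H489 Vale.Agent.P331.H379 Vale.Agent.P331.H688
open scoped Classical

/-- parameters of a level -/
structure Lv where
  ep : ℝ
  kap : ℕ
  Z : ℝ
  tau : ℝ

/-- usable parameters -/
structure Lv.Ok (l : Lv) : Prop where
  ep : 0 < l.ep
  tau : 0 < l.tau

section defs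

variable {E : Type} [Fintype E] (D : Finset E → Prop) (g t : ℝ) (l : Lv)

/-- up-sets -/
def Up (D : Finset E → Prop) : Prop := ∀ A B, A ⊆ B → D A → D B

/-- `b` is pivotal at `A` -/
def Piv (D : Finset E → Prop) (b : E) (A : Finset E) : Prop := D (insert b A) ∧ ¬ D (A.erase b)

/-- `Y` is good for the pool `H` -/
def good (S H Y : Finset E) : Prop :=
  Y.card ≤ l.kap ∧ thin t (S \ H) (fun N => ind (¬ D (Y ∪ H ∪ N))) ≤ l.ep / (Y.card + 1)

/-- some subset of `X` is good for the pool `H` -/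
def gd (S H X : Finset E) : Prop := ∃ Y ⊆ X, good D t l S H Y

/-- the probability that no subset of `X` is good -/
noncomputable def ff (S X : Finset E) : ℝ := thin g S fun H => ind (¬ gd D t l S H X)

/-- `X` violates the target -/
def vio (S X : Finset E) : Prop := (X.card : ℝ) ≤ l.Z ∧ ff D g t l S X ≤ l.tau / (X.card + 1)

/-- `b` is pivotal with a visible probability in a small context inside `V` -/
def vis (b : E) (V S H : Finset E) : Prop := ∃ U ⊆ V, U.card ≤ l.kap ∧
  l.ep / (l.kap + 1) ^ 2 ≤ thin t (S \ H) fun N => ind (Piv D b (U ∪ H ∪ N))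

end defs

section lems

variable {E : Type} [Fintype E] {D : Finset E → Prop} {g t : ℝ} {l : Lv}

theorem exists_min' {P : Finset E → Prop} (U : Finset E) (hU : P U) :
    ∃ X ⊆ U, P X ∧ ∀ X' ⊂ X, ¬ P X' := by
  induction U using Finset.strongInduction with
  | H U ih =>
    by_cases h : ∃ X' ⊂ U, P X'
    · obtain ⟨X', hX', hP⟩ := h
      obtain ⟨X, hX, h1, h2⟩ := ih X' hX' hP
      exact ⟨X, hX.trans hX'.subset, h1, h2⟩
    · push Not at h
      exact ⟨U, subset_rfl, hU, h⟩

theorem gap {e : ℝ} (he : 0 ≤ e) {k n : ℕ} (hk : 1 ≤ k) (hkn : k ≤ n) :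
    e / (n + 1) ^ 2 ≤ e / k - e / (k + 1) := by
  have h1 : (1 : ℝ) ≤ k := by exact_mod_cast hk
  have h2 : (k : ℝ) ≤ n := by exact_mod_cast hkn
  have h3 : e / k - e / (k + 1) = e / (k * (k + 1)) := by
    field_simp
    ring
  rw [h3]
  refine div_le_div_of_nonneg_left he (by positivity) ?_
  nlinarith

/-- removing an element of a good set -/
theorem vis_of_good (h0 : 0 ≤ t) (h1 : t ≤ 1) (hl : 0 ≤ l.ep) {S H Y : Finset E} (hH : H ⊆ S)
    {b : E} (hb : b ∈ Y) (hbS : b ∉ S) (hY : good D t l S H Y) (hn : ¬ good D t l S H (Y.erase b)) :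
    vis D t l b (Y.erase b) S H := by
  have hc := card_erase_add_one hb
  have hc' : ((Y.erase b).card : ℝ) + 1 = Y.card := by exact_mod_cast hc
  have hpos : 1 ≤ Y.card := card_pos.2 ⟨b, hb⟩
  refine ⟨Y.erase b, subset_rfl, by have := hY.1; omega, ?_⟩
  have h2 : l.ep / Y.card < thin t (S \ H) (fun N => ind (¬ D (Y.erase b ∪ H ∪ N))) := by
    by_contra hcon
    push Not at hcon
    refine hn ⟨by have := hY.1; omega, ?_⟩
    rw [hc']
    exact hcon
  have h3 := hY.2
  have h4 := gap hl hpos hY.1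
  have h5 : thin t (S \ H) (fun N => ind (¬ D (Y.erase b ∪ H ∪ N))) -
      thin t (S \ H) (fun N => ind (¬ D (Y ∪ H ∪ N))) ≤
      thin t (S \ H) fun N => ind (Piv D b (Y.erase b ∪ H ∪ N)) := by
    rw [← thin_sub]
    refine thin_mono h0 h1 fun N hN => ?_
    have e1 : insert b (Y.erase b ∪ H ∪ N) = Y ∪ H ∪ N := by
      ext e
      simp only [mem_insert, mem_union, mem_erase]
      by_cases h : e = b
      · subst h; simp [hb]
      · simp [h]
    have e2 : (Y.erase b ∪ H ∪ N).erase b = Y.erase b ∪ H ∪ N := by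
      refine erase_eq_of_notMem ?_
      simp only [mem_union, mem_erase]
      rintro ((h | h) | h)
      · exact h.1 rfl
      · exact hbS (hH h)
      · exact hbS (mem_sdiff.1 (hN h)).1
    unfold Piv
    rw [e1, e2]
    by_cases ha : D (Y.erase b ∪ H ∪ N)
    · rw [ind_not (not_not.2 ha)]
      have := ind_nonneg (¬ D (Y ∪ H ∪ N))
      have := ind_nonneg (D (Y ∪ H ∪ N) ∧ ¬ D (Y.erase b ∪ H ∪ N))
      linarith
    · rw [ind_of ha]
      by_cases hb' : D (Y ∪ H ∪ N)
      · rw [ind_not (not_not.2 hb'), ind_of ⟨hb', ha⟩]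
        norm_num
      · rw [ind_of hb']
        have := ind_nonneg (D (Y ∪ H ∪ N) ∧ ¬ D (Y.erase b ∪ H ∪ N))
        linarith
  linarith

theorem vis_mono {b : E} {V V' S H : Finset E} (h : V ⊆ V') (hv : vis D t l b V S H) :
    vis D t l b V' S H := by
  obtain ⟨U, hU, h1, h2⟩ := hv
  exact ⟨U, hU.trans h, h1, h2⟩

/-- **Lemma R.** An element of a minimal violating set is visible. -/
theorem lemR (hg0 : 0 ≤ g) (hg1 : g ≤ 1) (h0 : 0 ≤ t) (h1 : t ≤ 1) (hl : 0 ≤ l.ep)
    (hZ : 0 ≤ l.Z) (htau : 0 ≤ l.tau) {S X : Finset E} {b : E} (hb : b ∈ X) (hbS : b ∉ S)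
    (hv : vio D g t l S X) (hn : ¬ vio D g t l S (X.erase b)) :
    l.tau / (l.Z + 1) ^ 2 ≤ thin g S fun H => ind (vis D t l b (X.erase b) S H) := by
  have hc := card_erase_add_one hb
  have hc' : ((X.erase b).card : ℝ) + 1 = X.card := by exact_mod_cast hc
  have hpos : 1 ≤ X.card := card_pos.2 ⟨b, hb⟩
  have hpos' : (1 : ℝ) ≤ X.card := by exact_mod_cast hpos
  have h2 : l.tau / X.card < ff D g t l S (X.erase b) := by
    by_contra hcon
    push Not at hcon
    refine hn ⟨by have := hv.1; linarith, ?_⟩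
    rw [hc']
    exact hcon
  have h3 := hv.2
  have h4 : l.tau / (l.Z + 1) ^ 2 ≤ l.tau / X.card - l.tau / (X.card + 1) := by
    have h5 : l.tau / X.card - l.tau / (X.card + 1) = l.tau / (X.card * (X.card + 1)) := by
      field_simp
      ring
    rw [h5]
    refine div_le_div_of_nonneg_left htau (by positivity) ?_
    have := hv.1
    nlinarith
  have h5 : ff D g t l S (X.erase b) - ff D g t l S X ≤
      thin g S fun H => ind (vis D t l b (X.erase b) S H) := by
    unfold ff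
    rw [← thin_sub]
    refine thin_mono hg0 hg1 fun H hH => ?_
    by_cases ha : gd D t l S H (X.erase b)
    · rw [ind_not (not_not.2 ha)]
      have := ind_nonneg (¬ gd D t l S H X)
      have := ind_nonneg (vis D t l b (X.erase b) S H)
      linarith
    · rw [ind_of ha]
      by_cases hb' : gd D t l S H X
      · have hvis : vis D t l b (X.erase b) S H := by
          obtain ⟨Y, hY, hgood⟩ := hb'
          have hbY : b ∈ Y := by
            by_contra hbY
            exact ha ⟨Y, fun e he => mem_erase.2 ⟨fun h => hbY (h ▸ he), hY he⟩, hgood⟩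
          have hng : ¬ good D t l S H (Y.erase b) := fun h => ha ⟨Y.erase b,
            erase_subset_erase b hY, h⟩
          exact vis_mono (erase_subset_erase b hY) (vis_of_good h0 h1 hl hH hbY hbS hgood hng)
        rw [ind_of hvis]
        have := ind_nonneg (¬ gd D t l S H X)
        linarith
      · rw [ind_of hb']
        have := ind_nonneg (vis D t l b (X.erase b) S H)
        linarith
  linarith

/-- a good set outside of `A` gives a visible element outside of `A` -/
theorem gd_cases (h0 : 0 ≤ t) (h1 : t ≤ 1) (hl : 0 ≤ l.ep) {S H X V A : Finset E} (hH : H ⊆ S)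
    (hX : X ⊆ V) (hV : Disjoint V S) (h : gd D t l S H X) (hn : ¬ gd D t l S H (X ∩ A)) :
    ∃ f ∈ univ \ A, vis D t l f V S H := by
  obtain ⟨Y, hY, hg⟩ := h
  obtain ⟨Y', hY', hg', hmin⟩ := exists_min' (P := good D t l S H) Y hg
  have hsub : ¬ Y' ⊆ A := fun hsub =>
    hn ⟨Y', fun e he => mem_inter.2 ⟨hY (hY' he), hsub he⟩, hg'⟩
  obtain ⟨f, hf, hfA⟩ := not_subset.1 hsub
  refine ⟨f, mem_sdiff.2 ⟨mem_univ _, hfA⟩, ?_⟩
  have hfV : f ∈ V := hX (hY (hY' hf))
  have hfS : f ∉ S := fun h => disjoint_left.1 hV hfV h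
  exact vis_mono (((erase_subset f Y').trans hY').trans (hY.trans hX))
    (vis_of_good h0 h1 hl hH hf hfS hg' (hmin _ (erase_ssubset hf)))

end lems

section luck

variable {E : Type} [Fintype E] {D : Finset E → Prop}

/-- many pools have a small subset of `A` which works -/
def Fam (D : Finset E → Prop) (g1 θ : ℝ) (kap : ℕ) (α a : ℝ) (R A : Finset E) : Prop :=
  thin g1 R (fun G => ind (¬ ∃ Y ⊆ A, Y.card ≤ kap ∧
    thin θ (R \ G) (fun N => ind (¬ D (Y ∪ G ∪ N))) ≤ α)) ≤ a

theorem Fam_mono {g1 θ : ℝ} (hg0 : 0 ≤ g1) (hg1 : g1 ≤ 1) {kap : ℕ} {α a : ℝ}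
    {R A B : Finset E} (h : A ⊆ B) (hA : Fam D g1 θ kap α a R A) : Fam D g1 θ kap α a R B := by
  refine le_trans (thin_mono hg0 hg1 fun G _ => ind_mono ?_) hA
  intro h1 h2
  obtain ⟨Y, hY, h3⟩ := h2
  exact h1 ⟨Y, hY.trans h, h3⟩

/-- **Transfer** to the sample without the second pool. -/
theorem transfer {g g1 t θ : ℝ} {l : Lv} (hg0 : 0 ≤ g) (hg1 : g ≤ 1) (hg10 : 0 ≤ g1)
    (hg11 : g1 ≤ 1) (hθ0 : 0 ≤ θ) (hθ1 : θ ≤ 1)
    (e1 : (1 - g) * g1 = g) (e2 : (1 - g1) * θ = t) (hl : 0 ≤ l.ep) {α a : ℝ} (hα : 0 < α)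
    (ha : 0 < a) {S K : Finset E} (hK : ff D g t l S K ≤ l.tau) :
    thin g S (fun H => ind (¬ Fam D g1 θ l.kap α a (S \ H) K)) ≤ (l.tau + l.ep / α) / a := by
  let Yc : Finset E → Finset E := fun G => if h : gd D t l S G K then h.choose else ∅
  have hYc : ∀ G, gd D t l S G K → Yc G ⊆ K ∧ good D t l S G (Yc G) := by
    intro G h
    have : Yc G = h.choose := dif_pos h
    rw [this]
    exact h.choose_spec
  let Φ : Finset E → Finset E → ℝ := fun G N =>
    ind (¬ gd D t l S G K) + (1 / α) * (if gd D t l S G K then ind (¬ D (Yc G ∪ G ∪ N)) else 0)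
  have h1 : ∀ H ⊆ S, ind (¬ Fam D g1 θ l.kap α a (S \ H) K) ≤
      (1 / a) * thin g1 (S \ H) fun G => thin θ ((S \ H) \ G) fun N => Φ G N := by
    intro H _
    have h2 : thin g1 (S \ H) (fun G => ind (¬ ∃ Y ⊆ K, Y.card ≤ l.kap ∧
        thin θ ((S \ H) \ G) (fun N => ind (¬ D (Y ∪ G ∪ N))) ≤ α)) ≤
        thin g1 (S \ H) fun G => thin θ ((S \ H) \ G) fun N => Φ G N := by
      refine thin_mono hg10 hg11 fun G _ => ?_
      have h3 : (thin θ ((S \ H) \ G) fun N => Φ G N) = ind (¬ gd D t l S G K) +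
          (1 / α) * thin θ ((S \ H) \ G) fun N =>
            (if gd D t l S G K then ind (¬ D (Yc G ∪ G ∪ N)) else 0) := by
        simp only [Φ]
        rw [thin_add, thin_const, thin_mul]
      rw [h3]
      by_cases hgd : gd D t l S G K
      · rw [ind_not (not_not.2 hgd), zero_add]
        simp only [if_pos hgd]
        obtain ⟨h4, h5⟩ := hYc G hgd
        by_cases h6 : thin θ ((S \ H) \ G) (fun N => ind (¬ D (Yc G ∪ G ∪ N))) ≤ α
        · rw [ind_not (not_not.2 ⟨Yc G, h4, h5.1, h6⟩)]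
          exact mul_nonneg (by positivity) (thin_nonneg hθ0 hθ1 fun _ _ => ind_nonneg _)
        · push Not at h6
          refine (ind_le_one _).trans ?_
          rw [one_div, inv_mul_eq_div, le_div_iff₀ hα, one_mul]
          exact h6.le
      · rw [ind_of hgd]
        simp only [if_neg hgd, thin_const, mul_zero, add_zero]
        exact ind_le_one _
    by_cases hF : Fam D g1 θ l.kap α a (S \ H) K
    · rw [ind_not (not_not.2 hF)]
      refine mul_nonneg (by positivity) (le_trans ?_ h2)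
      exact thin_nonneg hg10 hg11 fun _ _ => ind_nonneg _
    · rw [ind_of hF]
      have hF' := lt_of_not_ge hF
      rw [one_div, inv_mul_eq_div, le_div_iff₀ ha, one_mul]
      exact hF'.le.trans h2
  refine (thin_mono hg0 hg1 h1).trans ?_
  rw [thin_mul, thin_three e1 e2, one_div, inv_mul_eq_div]
  refine div_le_div_of_nonneg_right ?_ ha.le
  have h7 : ∀ G ⊆ S, (thin t (S \ G) fun N => Φ G N) ≤
      ind (¬ gd D t l S G K) + l.ep / α := by
    intro G _
    simp only [Φ]
    rw [thin_add, thin_const, thin_mul]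
    refine add_le_add le_rfl ?_
    by_cases hgd : gd D t l S G K
    · simp only [if_pos hgd]
      have h8 := (hYc G hgd).2.2
      rw [one_div, inv_mul_eq_div]
      refine div_le_div_of_nonneg_right (h8.trans ?_) hα.le
      have h9 : (0 : ℝ) ≤ (Yc G).card := Nat.cast_nonneg _
      exact div_le_self hl (by linarith)
    · simp only [if_neg hgd, thin_const, mul_zero]
      positivity
  refine (thin_mono hg0 hg1 h7).trans ?_
  rw [thin_add, thin_const]
  exact add_le_add hK le_rfl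

/-- the bad event for the pool `G` -/
def BadG (D : Finset E → Prop) (θ θ' : ℝ) (kap : ℕ) (α a : ℝ) (X R G : Finset E) : Prop :=
  (∃ Y ⊆ X, Y.card ≤ kap ∧ thin θ (R \ G) (fun N => ind (¬ D (Y ∪ G ∪ N))) ≤ α) ∧
    a < thin θ' (R \ G) fun N => ind (¬ D (X ∪ G ∪ N))

/-- the natural side -/
theorem natural {p x g1 t θ θ' r ε α a b1 d4 : ℝ} {kap : ℕ} (hp : 0 ≤ p) (hx : 0 ≤ x)
    (hpx : p + x ≤ 1) (hg10 : 0 ≤ g1) (hg11 : g1 ≤ 1) (hθ0 : 0 ≤ θ') (hθ1 : θ' ≤ 1)
    (e3 : t = g1 + (1 - g1) * θ') (hX : x = (1 - x) * (r * ε))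
    (hR : (1 - p - x) * (1 - g1) = (1 - x) * r) (hG : (1 - p - x) * g1 = x) (ha : 0 < a)
    (hb1 : 3 * a ≤ b1) (hlw : ∀ (_e : E) (y : Lab), 0 ≤ lw r ε y)
    (hQ : ∀ G : Finset E, EX (fun _ => lw r ε) (fun ω => ind ((∃ Y ⊆ lab Lab.X ω, Y.card ≤ kap ∧
      thin θ (lab Lab.R ω) (fun N => ind (¬ D (Y ∪ G ∪ N))) ≤ α) ∧
      a < thin θ' (lab Lab.R ω) fun N => ind (¬ D (lab Lab.X ω ∪ G ∪ N)))) ≤ d4) :
    EX (fun _ : E => w3 p x) (fun ω => ind (Fam D g1 θ kap α a (lab Lab.R ω) (lab Lab.X ω) ∧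
      b1 < thin t (lab Lab.R ω) fun N => ind (¬ D (lab Lab.X ω ∪ N)))) ≤ d4 / a := by
  have hw : ∀ (e : E) (l : Lab), 0 ≤ w3 p x l := fun _ l => w3_nonneg hp hx hpx l
  have hx1 : x ≤ 1 := by linarith
  have h1 : ∀ ω : E → Lab, ind (Fam D g1 θ kap α a (lab Lab.R ω) (lab Lab.X ω) ∧
      b1 < thin t (lab Lab.R ω) fun N => ind (¬ D (lab Lab.X ω ∪ N))) ≤
      (1 / a) * thin g1 (lab Lab.R ω) fun G =>
        ind (BadG D θ θ' kap α a (lab Lab.X ω) (lab Lab.R ω) G) := by
    intro ω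
    by_cases h : Fam D g1 θ kap α a (lab Lab.R ω) (lab Lab.X ω) ∧
      b1 < thin t (lab Lab.R ω) fun N => ind (¬ D (lab Lab.X ω ∪ N))
    · rw [ind_of h]
      obtain ⟨hF, hb⟩ := h
      rw [thin_split e3] at hb
      have h2 : ∀ G ⊆ lab Lab.R ω, (thin θ' (lab Lab.R ω \ G) fun N =>
          ind (¬ D (lab Lab.X ω ∪ (G ∪ N)))) ≤
          (ind (¬ ∃ Y ⊆ lab Lab.X ω, Y.card ≤ kap ∧
            thin θ (lab Lab.R ω \ G) (fun N => ind (¬ D (Y ∪ G ∪ N))) ≤ α) + a) +
          ind (BadG D θ θ' kap α a (lab Lab.X ω) (lab Lab.R ω) G) := by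
        intro G _
        have e4 : (fun N => ind (¬ D (lab Lab.X ω ∪ (G ∪ N)))) =
            fun N => ind (¬ D (lab Lab.X ω ∪ G ∪ N)) := by
          funext N
          rw [union_assoc]
        rw [e4]
        have i1 := ind_nonneg (BadG D θ θ' kap α a (lab Lab.X ω) (lab Lab.R ω) G)
        have i2 := ind_nonneg (¬ ∃ Y ⊆ lab Lab.X ω, Y.card ≤ kap ∧
            thin θ (lab Lab.R ω \ G) (fun N => ind (¬ D (Y ∪ G ∪ N))) ≤ α)
        have i3 := thin_ind_le_one (S := lab Lab.R ω \ G) hθ0 hθ1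
          (fun N => ¬ D (lab Lab.X ω ∪ G ∪ N))
        by_cases hY : ∃ Y ⊆ lab Lab.X ω, Y.card ≤ kap ∧
            thin θ (lab Lab.R ω \ G) (fun N => ind (¬ D (Y ∪ G ∪ N))) ≤ α
        · by_cases hA : a < thin θ' (lab Lab.R ω \ G) fun N => ind (¬ D (lab Lab.X ω ∪ G ∪ N))
          · have i4 : ind (BadG D θ θ' kap α a (lab Lab.X ω) (lab Lab.R ω) G) = 1 :=
              ind_of ⟨hY, hA⟩
            linarith
          · push Not at hA
            linarith
        · rw [ind_of hY]
          linarith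
      have h3 := thin_mono hg10 hg11 h2
      rw [thin_add, thin_add, thin_const] at h3
      have h4 : thin g1 (lab Lab.R ω) (fun G => ind (¬ ∃ Y ⊆ lab Lab.X ω, Y.card ≤ kap ∧
            thin θ (lab Lab.R ω \ G) (fun N => ind (¬ D (Y ∪ G ∪ N))) ≤ α)) ≤ a := hF
      rw [one_div, inv_mul_eq_div, le_div_iff₀ ha, one_mul]
      linarith
    · rw [ind_not h]
      exact mul_nonneg (by positivity) (thin_nonneg hg10 hg11 fun _ _ => ind_nonneg _)
  refine (EX_mono hw h1).trans ?_
  rw [EX_mul, labels_cond hX hR hG (fun X R G => ind (BadG D θ θ' kap α a X R G)), one_div,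
    inv_mul_eq_div]
  refine div_le_div_of_nonneg_right ?_ ha.le
  refine (thin_mono hx hx1 (G := fun _ => d4) fun G _ => ?_).trans (le_of_eq (thin_const d4))
  refine le_trans (EX_mono hlw fun ω => ind_mono ?_) (hQ G)
  rintro ⟨⟨Y, hY, hY1, hY2⟩, hA⟩
  have e4 : (lab Lab.R ω ∪ G) \ G = lab Lab.R ω \ G := union_sdiff_right _ _
  have e5 : ∀ (τ : ℝ) (Z : Finset E), thin τ ((lab Lab.R ω ∪ G) \ G)
      (fun N => ind (¬ D (Z ∪ G ∪ N))) = thin τ (lab Lab.R ω)
      (fun N => ind (¬ D (Z ∪ G ∪ N))) := by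
    intro τ Z
    rw [e4]
    have h5 := thin_union (t := τ) (S := lab Lab.R ω) G (fun M => ind (¬ D (Z ∪ M)))
    have e6 : (fun N => ind (¬ D (Z ∪ (N ∪ G)))) = fun N => ind (¬ D (Z ∪ G ∪ N)) := by
      funext N
      rw [union_comm N G, union_assoc]
    rw [e6] at h5
    exact h5.symm
  rw [e5] at hY2 hA
  refine ⟨⟨Y, hY.trans sdiff_subset, hY1, hY2⟩, ?_⟩
  have e7 : ∀ N : Finset E, (lab Lab.X ω \ G) ∪ G ∪ N = lab Lab.X ω ∪ G ∪ N := by
    intro N
    rw [sdiff_union_self_eq_union]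
  simp only [e7] at hA
  exact hA

/-- there is a bad set of test elements -/
def Ev (D : Finset E → Prop) (g t : ℝ) (l1 l2 : Lv) (V : Finset E) : Prop :=
  ∃ X ⊆ V, vio D g t l2 (univ \ V) X ∧ ∀ X' ⊆ X, ¬ vio D g t l1 (univ \ V) X'

/-- **Lemma L.** -/
theorem lemL {g t p x g1 θ θ' r ε α a lam d1 d4 : ℝ} {l1 l2 : Lv} {A : Finset E}
    (hp : 0 ≤ p) (hx : 0 ≤ x) (hpx : p + x ≤ 1) (hg0 : 0 ≤ g) (hg1 : g ≤ 1) (hg10 : 0 ≤ g1)
    (hg11 : g1 ≤ 1) (ht0 : 0 ≤ t) (ht1 : t ≤ 1) (hθ0 : 0 ≤ θ) (hθ1 : θ ≤ 1) (hθ'0 : 0 ≤ θ')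
    (hθ'1 : θ' ≤ 1) (hlw : ∀ (_e : E) (y : Lab), 0 ≤ lw r ε y) (e0 : (1 - p) * g = x)
    (e1 : (1 - g) * g1 = g) (e2 : (1 - g1) * θ = t) (e3 : t = g1 + (1 - g1) * θ')
    (hX : x = (1 - x) * (r * ε)) (hR : (1 - p - x) * (1 - g1) = (1 - x) * r)
    (hG : (1 - p - x) * g1 = x) (hlam : 1 ≤ lam) (hlam' : lam * p ≤ x)
    (h1e : 0 ≤ l1.ep) (h1t : 0 ≤ l1.tau) (h2e : 0 ≤ l2.ep) (h2t : 0 ≤ l2.tau) (hα : 0 < α)
    (ha : 0 < a)
    (hb1 : 3 * a ≤ l1.ep / (l1.kap + 1)) (hA : (A.card : ℝ) ≤ l1.Z)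
    (hvis : ∑ f ∈ univ \ A, (thin p univ fun V => thin g (univ \ V) fun H =>
      ind (vis D t l1 f V (univ \ V) H)) ≤ d1)
    (hQ : ∀ G : Finset E, EX (fun _ => lw r ε) (fun ω => ind ((∃ Y ⊆ lab Lab.X ω,
      Y.card ≤ l2.kap ∧ thin θ (lab Lab.R ω) (fun N => ind (¬ D (Y ∪ G ∪ N))) ≤ α) ∧
      a < thin θ' (lab Lab.R ω) fun N => ind (¬ D (lab Lab.X ω ∪ G ∪ N)))) ≤ d4) :
    (l1.tau / (l1.Z + 1) - (l2.tau + l2.ep / α) / a) *
      (thin p univ fun V => ind (Ev D g t l1 l2 V)) ≤
      d1 + (lam⁻¹) ^ (l1.kap + 1) + d4 / a := by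
  have hp1 : p ≤ 1 := by linarith
  let K : Finset E → Finset E := fun V => if h : Ev D g t l1 l2 V then h.choose else ∅
  have hK : ∀ V, Ev D g t l1 l2 V → K V ⊆ V ∧ vio D g t l2 (univ \ V) (K V) ∧
      ∀ X' ⊆ K V, ¬ vio D g t l1 (univ \ V) X' := by
    intro V h
    have : K V = h.choose := dif_pos h
    rw [this]
    exact h.choose_spec
  set τ' := l1.tau / (l1.Z + 1) with hτ'
  set d2 := (l2.tau + l2.ep / α) / a with hd2
  set P := thin p univ fun V => ind (Ev D g t l1 l2 V) with hP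
  have hZ0 : 0 ≤ l1.Z := le_trans (Nat.cast_nonneg _) hA
  -- the three events
  let B1 : Finset E → Finset E → ℝ := fun V H =>
    ∑ f ∈ univ \ A, ind (vis D t l1 f V (univ \ V) H)
  let B2 : Finset E → Finset E → Prop := fun V H =>
    ¬ Fam D g1 θ l2.kap α a ((univ \ V) \ H) (K V)
  let B3 : Finset E → Finset E → Prop := fun V H => Ev D g t l1 l2 V ∧
    Fam D g1 θ l2.kap α a ((univ \ V) \ H) (K V) ∧ ¬ gd D t l1 (univ \ V) H (K V)
  -- step A
  have sA : ∀ V ⊆ univ, τ' * ind (Ev D g t l1 l2 V) ≤ thin g (univ \ V) fun H =>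
      (B1 V H + ind (Ev D g t l1 l2 V) * ind (B2 V H)) + ind (B3 V H) := by
    intro V _
    have hB1 : ∀ H, 0 ≤ B1 V H := fun H => sum_nonneg fun f _ => ind_nonneg _
    by_cases hE : Ev D g t l1 l2 V
    · obtain ⟨k1, k2, k3⟩ := hK V hE
      rw [ind_of hE, mul_one]
      have h1 : τ' ≤ ff D g t l1 (univ \ V) (K V ∩ A) := by
        have h2 := k3 (K V ∩ A) inter_subset_left
        have h3 : ((K V ∩ A).card : ℝ) ≤ A.card := by
          exact_mod_cast card_le_card inter_subset_right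
        have h4 : l1.tau / ((K V ∩ A).card + 1) < ff D g t l1 (univ \ V) (K V ∩ A) := by
          by_contra hcon
          push Not at hcon
          exact h2 ⟨h3.trans hA, hcon⟩
        refine le_trans ?_ h4.le
        exact div_le_div_of_nonneg_left h1t (Nat.cast_add_one_pos _) (by linarith)
      refine h1.trans (thin_mono hg0 hg1 fun H hH => ?_)
      by_cases hgd : gd D t l1 (univ \ V) H (K V ∩ A)
      · rw [ind_not (not_not.2 hgd)]
        have := hB1 H
        have := ind_nonneg (B2 V H)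
        have := ind_nonneg (B3 V H)
        linarith
      · rw [ind_of hgd, one_mul]
        have i1 := hB1 H
        have i2 := ind_nonneg (B2 V H)
        have i3 := ind_nonneg (B3 V H)
        by_cases hgK : gd D t l1 (univ \ V) H (K V)
        · obtain ⟨f, hf, hv⟩ := gd_cases ht0 ht1 h1e hH k1 disjoint_sdiff hgK hgd
          have h5 := single_le_sum (f := fun f => ind (vis D t l1 f V (univ \ V) H))
            (fun _ _ => ind_nonneg _) hf
          rw [ind_of hv] at h5
          have h6 : (1 : ℝ) ≤ B1 V H := h5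
          linarith
        · by_cases hF : Fam D g1 θ l2.kap α a ((univ \ V) \ H) (K V)
          · have : ind (B3 V H) = 1 := ind_of ⟨hE, hF, hgK⟩
            linarith
          · have : ind (B2 V H) = 1 := ind_of hF
            linarith
    · rw [ind_not hE, mul_zero]
      refine thin_nonneg hg0 hg1 fun H _ => ?_
      rw [zero_mul, add_zero]
      exact add_nonneg (hB1 H) (ind_nonneg _)
  -- step D
  have sD : ∀ V ⊆ univ, (thin g (univ \ V) fun H =>
      (B1 V H + ind (Ev D g t l1 l2 V) * ind (B2 V H)) + ind (B3 V H)) ≤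
      (thin g (univ \ V) (fun H => B1 V H) + d2 * ind (Ev D g t l1 l2 V)) +
        thin g (univ \ V) fun H => ind (B3 V H) := by
    intro V _
    rw [thin_add, thin_add, thin_mul]
    refine add_le_add (add_le_add le_rfl ?_) le_rfl
    by_cases hE : Ev D g t l1 l2 V
    · rw [ind_of hE, one_mul, mul_one]
      refine transfer hg0 hg1 hg10 hg11 hθ0 hθ1 e1 e2 h2e hα ha ?_
      refine (hK V hE).2.1.2.trans ?_
      refine div_le_self h2t ?_
      have : (0 : ℝ) ≤ (K V).card := Nat.cast_nonneg _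
      linarith
    · rw [ind_not hE, zero_mul, mul_zero]
  have s1 : τ' * P ≤ (thin p univ fun V => thin g (univ \ V) fun H => B1 V H) + d2 * P +
      thin p univ fun V => thin g (univ \ V) fun H => ind (B3 V H) := by
    have h1 := (thin_mono hp hp1 sA).trans (thin_mono hp hp1 sD)
    rw [thin_mul, thin_add, thin_add, thin_mul] at h1
    exact h1
  have s2 : (thin p univ fun V => thin g (univ \ V) fun H => B1 V H) ≤ d1 := by
    refine le_trans (le_of_eq ?_) hvis
    rw [← thin_sum]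
    refine thin_congr fun V _ => ?_
    rw [← thin_sum]
  have s3 : (thin p univ fun V => thin g (univ \ V) fun H => ind (B3 V H)) ≤
      (lam⁻¹) ^ (l1.kap + 1) + d4 / a := by
    have hw : ∀ (e : E) (y : Lab), 0 ≤ w3 p x y := fun _ y => w3_nonneg hp hx hpx y
    rw [labels_eq e0 (fun V H => ind (B3 V H))]
    have hRsub : ∀ ω : E → Lab, (univ \ lab Lab.O ω) \ lab Lab.X ω = lab Lab.R ω := by
      intro ω
      ext e
      simp only [mem_sdiff, mem_univ, true_and, mem_lab]
      cases ω e <;> simp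
    let b1 : ℝ := l1.ep / (l1.kap + 1)
    let ψ : (E → Lab) → ℝ := fun ω =>
      ind (b1 < thin t (lab Lab.R ω) fun N => ind (¬ D (lab Lab.X ω ∪ N)))
    obtain ⟨Ev', hEv'⟩ : ∃ Ev' : (E → Lab) → Prop, ∀ ω, Ev' ω ↔
        B3 (lab Lab.O ω) (lab Lab.X ω) := ⟨_, fun _ => Iff.rfl⟩
    obtain ⟨U, hU1, hU2, hU3⟩ := jstar_label' Lab.O Lab.X (by decide) (fun _ : E => w3 p x) hw lam
      hlam (fun _ => hlam') (fun ω B => Fam D g1 θ l2.kap α a (lab Lab.R ω) B)
      (fun ω B C h hB => Fam_mono hg10 hg11 h hB) (by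
        intro ω ω' hs B hB
        have : lab Lab.R ω = lab Lab.R ω' := by
          ext e
          rw [mem_lab, mem_lab]
          rcases hs e with h | ⟨h1, h2⟩
          · rw [h]
          · constructor
            · intro h
              rw [h] at h1
              simp at h1
            · intro h
              rw [h] at h2
              simp at h2
        rwa [← this]) Ev' (fun ω => K (lab Lab.O ω)) (by
        intro ω hE
        obtain ⟨h1, h2, -⟩ := (hEv' ω).1 hE
        rw [hRsub] at h2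
        exact ⟨fun e he => mem_lab.1 ((hK _ h1).1 he), h2⟩)
    have hpt : ∀ ω : E → Lab, ind (B3 (lab Lab.O ω) (lab Lab.X ω)) ≤
        (if Ev' ω ∧ l1.kap + 1 ≤ (U ω).card then 1 else 0) +
        (if Ev' ω then ψ (H379.flip Lab.X (U ω) ω) else 0) := by
      intro ω
      by_cases hE : Ev' ω
      · rw [if_pos hE]
        by_cases hc : l1.kap + 1 ≤ (U ω).card
        · rw [if_pos ⟨hE, hc⟩]
          have : 0 ≤ ψ (H379.flip Lab.X (U ω) ω) := ind_nonneg _
          have := ind_le_one (B3 (lab Lab.O ω) (lab Lab.X ω))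
          linarith
        · rw [if_neg (fun h => hc h.2), zero_add]
          obtain ⟨h1, h2, h3⟩ := (hEv' ω).1 hE
          have hUK := (hU1 ω hE).1
          have hUO : ∀ e ∈ U ω, ω e = Lab.O := fun e he => mem_lab.1 ((hK _ h1).1 (hUK he))
          have hng : ¬ good D t l1 (univ \ lab Lab.O ω) (lab Lab.X ω) (U ω) := fun h =>
            h3 ⟨U ω, hUK, h⟩
          have hcard : (U ω).card ≤ l1.kap := by omega
          have h4 : l1.ep / ((U ω).card + 1) < thin t ((univ \ lab Lab.O ω) \ lab Lab.X ω)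
              (fun N => ind (¬ D (U ω ∪ lab Lab.X ω ∪ N))) := by
            by_contra hcon
            push Not at hcon
            exact hng ⟨hcard, hcon⟩
          rw [hRsub] at h4
          have hR' : lab Lab.R (H379.flip Lab.X (U ω) ω) = lab Lab.R ω := by
            ext e
            rw [mem_lab, mem_lab]
            unfold H379.flip
            by_cases he : e ∈ U ω
            · rw [if_pos he, hUO e he]
              simp
            · rw [if_neg he]
          have h5 : b1 ≤ l1.ep / ((U ω).card + 1) := by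
            have : ((U ω).card : ℝ) ≤ l1.kap := by exact_mod_cast hcard
            exact div_le_div_of_nonneg_left h1e (Nat.cast_add_one_pos _) (by linarith)
          have h6 : ψ (H379.flip Lab.X (U ω) ω) = 1 := by
            refine ind_of ?_
            rw [hR', lab_flip, union_comm (lab Lab.X ω)]
            exact lt_of_le_of_lt h5 h4
          rw [h6]
          exact ind_le_one _
      · rw [ind_not (fun h => hE ((hEv' ω).2 h)), if_neg hE, if_neg (fun h => hE h.1), add_zero]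
    refine (EX_mono hw hpt).trans ?_
    rw [EX_add]
    refine add_le_add ?_ ?_
    · have h1 := hU3 (l1.kap + 1) fun _ => sum_w3 p x
      have h2 : 0 < lam ^ (l1.kap + 1) := by positivity
      rw [inv_pow, ← one_div, le_div_iff₀ h2, mul_comm]
      exact h1
    · have h1 := hU2 ψ fun ω => ind_nonneg _
      refine h1.trans (le_trans (EX_mono hw fun ω => ?_) (natural (b1 := b1) hp hx hpx hg10 hg11
        hθ'0 hθ'1 e3 hX hR hG ha hb1 hlw hQ))
      by_cases hF : Fam D g1 θ l2.kap α a (lab Lab.R ω) (lab Lab.X ω)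
      · rw [if_pos hF]
        exact ind_mono fun h => ⟨hF, h⟩
      · rw [if_neg hF]
        exact ind_nonneg _
  have : (τ' - d2) * P = τ' * P - d2 * P := by ring
  linarith

end luck

end Vale.Agent.P331.H830
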